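import Mathlib

set_option linter.all false

/-!
The special linear groups over finite commutative rings are generated by transvections.
-/

namespace Vale.Agent.P183.R2.H612

open Matrix

section ring

variable {R : Type*} [CommRing R]

/-- some power of every element of a finite ring is idempotent -/
theorem exists_idem [Finite R] (x : R) : ∃ k : ℕ, 0 < k ∧ x ^ k * x ^ k = x ^ k := by
  obtain ⟨m, n, hmn, h⟩ := Finite.exists_ne_map_eq_of_infinite (fun n : ℕ => x ^ n)
  wlog hlt : m < n generalizing m n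
  · exact this n m hmn.symm h.symm (lt_of_le_of_ne (not_lt.mp hlt) hmn.symm)
  obtain ⟨p, hp, rfl⟩ : ∃ p, 0 < p ∧ n = m + p := ⟨n - m, by omega, by omega⟩
  have h0 : x ^ m = x ^ (m + p) := h
  have h1 : ∀ q, m ≤ q → x ^ q = x ^ (q + p) := by
    intro q hq
    obtain ⟨r, rfl⟩ := Nat.exists_eq_add_of_le hq
    rw [pow_add, h0, ← pow_add]
    congr 1
    ring
  have h2 : ∀ j q, m ≤ q → x ^ q = x ^ (q + j * p) := by
    intro j
    induction j with
    | zero => intro q _; simp
    | succ j ih =>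
      intro q hq
      rw [ih q hq, h1 _ (by omega)]
      congr 1
      ring
  refine ⟨(m + 1) * p, by positivity, ?_⟩
  rw [← pow_add]
  have h3 : m ≤ (m + 1) * p := by nlinarith
  exact (h2 (m + 1) _ h3).symm

/-- finite commutative rings have stable range one -/
theorem stable_one [Finite R] {x y a b : R} (h : x * a + y * b = 1) :
    ∃ t : R, IsUnit (x + t * y) := by
  obtain ⟨k, hk, he⟩ := exists_idem x
  refine ⟨1 - x ^ k, ?_⟩
  by_contra hu
  obtain ⟨m, hm, hmem⟩ := exists_max_ideal_of_mem_nonunits (mem_nonunits_iff.mpr hu)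
  have hp := hm.isPrime
  by_cases hx : x ∈ m
  · have he' : x ^ k ∈ m := Ideal.pow_mem_of_mem m hx k hk
    have h1 : (1 - x ^ k) * y ∈ m := by
      have := m.sub_mem hmem hx
      rwa [add_sub_cancel_left] at this
    rcases hp.mem_or_mem h1 with h2 | h2
    · refine hp.ne_top ((Ideal.eq_top_iff_one m).mpr ?_)
      have := m.add_mem h2 he'
      rwa [sub_add_cancel] at this
    · refine hp.ne_top ((Ideal.eq_top_iff_one m).mpr ?_)
      rw [← h]
      exact m.add_mem (m.mul_mem_right _ hx) (m.mul_mem_right _ h2)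
  · have h1 : x ^ k * (1 - x ^ k) ∈ m := by
      have : x ^ k * (1 - x ^ k) = 0 := by rw [mul_sub, mul_one, he, sub_self]
      rw [this]
      exact m.zero_mem
    rcases hp.mem_or_mem h1 with h2 | h2
    · exact hx (hp.mem_of_pow_mem k h2)
    · refine hx ?_
      have := m.sub_mem hmem (m.mul_mem_right y h2)
      rwa [add_sub_cancel_right] at this

end ring

section group

variable {ι : Type*} [Fintype ι] [DecidableEq ι] {R : Type*} [CommRing R]

/-- the elementary subgroup -/
def El (ι : Type*) [Fintype ι] [DecidableEq ι] (R : Type*) [CommRing R] :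
    Subgroup (SpecialLinearGroup ι R) :=
  Subgroup.closure {g | ∃ i j, i ≠ j ∧ ∃ c : R, (g : Matrix ι ι R) = transvection i j c}

/-- transvections -/
def tv (i j : ι) (h : i ≠ j) (c : R) : SpecialLinearGroup ι R :=
  ⟨transvection i j c, det_transvection_of_ne i j h c⟩

lemma tv_mem (i j : ι) (h : i ≠ j) (c : R) : tv i j h c ∈ El ι R :=
  Subgroup.subset_closure ⟨i, j, h, c, rfl⟩

lemma tv_mul_same (i j : ι) (h : i ≠ j) (c : R) (g : SpecialLinearGroup ι R) (b : ι) :
    (tv i j h c * g).1 i b = g.1 i b + c * g.1 j b :=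
  transvection_mul_apply_same i j b c g.1

lemma tv_mul_ne (i j : ι) (h : i ≠ j) (c : R) (g : SpecialLinearGroup ι R) {a : ι} (ha : a ≠ i)
    (b : ι) : (tv i j h c * g).1 a b = g.1 a b :=
  transvection_mul_apply_of_ne i j a b ha c g.1

lemma mul_tv_same (i j : ι) (h : i ≠ j) (c : R) (g : SpecialLinearGroup ι R) (a : ι) :
    (g * tv i j h c).1 a j = g.1 a j + c * g.1 a i :=
  mul_transvection_apply_same i j a c g.1

lemma mul_tv_ne (i j : ι) (h : i ≠ j) (c : R) (g : SpecialLinearGroup ι R) (a : ι) {b : ι}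
    (hb : b ≠ j) : (g * tv i j h c).1 a b = g.1 a b :=
  mul_transvection_apply_of_ne i j a b hb c g.1

/-- adding multiples of several rows to one row -/
lemma add_to_row (k : ι) (c : ι → R) (g : SpecialLinearGroup ι R) (T : Finset ι) (hk : k ∉ T) :
    ∃ e ∈ El ι R, (∀ b, (e * g).1 k b = g.1 k b + ∑ i ∈ T, c i * g.1 i b) ∧
      ∀ a, a ≠ k → ∀ b, (e * g).1 a b = g.1 a b := by
  induction T using Finset.induction_on with
  | empty => exact ⟨1, one_mem _, fun b => by simp, fun a _ b => by simp⟩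
  | insert j T hj ih =>
    obtain ⟨e, he, h1, h2⟩ := ih (fun h => hk (Finset.mem_insert_of_mem h))
    have hkj : k ≠ j := fun h => hk (h ▸ Finset.mem_insert_self j T)
    refine ⟨tv k j hkj (c j) * e, mul_mem (tv_mem _ _ _ _) he, fun b => ?_, fun a ha b => ?_⟩
    · rw [mul_assoc, tv_mul_same, h1, h2 j hkj.symm, Finset.sum_insert hj]
      ring
    · rw [mul_assoc, tv_mul_ne _ _ _ _ _ ha, h2 a ha]

/-- adding multiples of one row to several rows -/
lemma add_from_row (k : ι) (c : ι → R) (g : SpecialLinearGroup ι R) (T : Finset ι) (hk : k ∉ T) :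
    ∃ e ∈ El ι R, (∀ a ∈ T, ∀ b, (e * g).1 a b = g.1 a b + c a * g.1 k b) ∧
      ∀ a, a ∉ T → ∀ b, (e * g).1 a b = g.1 a b := by
  induction T using Finset.induction_on with
  | empty => exact ⟨1, one_mem _, fun a ha => by simp at ha, fun a _ b => by simp⟩
  | insert j T hj ih =>
    have hkT : k ∉ T := fun h => hk (Finset.mem_insert_of_mem h)
    obtain ⟨e, he, h1, h2⟩ := ih hkT
    have hkj : j ≠ k := fun h => hk (h ▸ Finset.mem_insert_self j T)
    refine ⟨tv j k hkj (c j) * e, mul_mem (tv_mem _ _ _ _) he, fun a ha b => ?_,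
      fun a ha b => ?_⟩
    · rcases Finset.mem_insert.mp ha with rfl | ha
      · rw [mul_assoc, tv_mul_same, h2 a hj, h2 k hkT]
      · have haj : a ≠ j := fun h => hj (h ▸ ha)
        rw [mul_assoc, tv_mul_ne _ _ _ _ _ haj, h1 a ha]
    · have haj : a ≠ j := fun h => ha (h ▸ Finset.mem_insert_self j T)
      have haT : a ∉ T := fun h => ha (Finset.mem_insert_of_mem h)
      rw [mul_assoc, tv_mul_ne _ _ _ _ _ haj, h2 a haT]

/-- adding multiples of one column to several columns -/
lemma add_from_col (k : ι) (c : ι → R) (g : SpecialLinearGroup ι R) (T : Finset ι) (hk : k ∉ T) :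
    ∃ e ∈ El ι R, (∀ b ∈ T, ∀ a, (g * e).1 a b = g.1 a b + c b * g.1 a k) ∧
      ∀ b, b ∉ T → ∀ a, (g * e).1 a b = g.1 a b := by
  induction T using Finset.induction_on with
  | empty => exact ⟨1, one_mem _, fun a ha => by simp at ha, fun a _ b => by simp⟩
  | insert j T hj ih =>
    have hkT : k ∉ T := fun h => hk (Finset.mem_insert_of_mem h)
    obtain ⟨e, he, h1, h2⟩ := ih hkT
    have hkj : k ≠ j := fun h => hk (h ▸ Finset.mem_insert_self j T)
    refine ⟨e * tv k j hkj (c j), mul_mem he (tv_mem _ _ _ _), fun b hb a => ?_,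
      fun b hb a => ?_⟩
    · rcases Finset.mem_insert.mp hb with rfl | hb
      · rw [← mul_assoc, mul_tv_same, h2 b hj, h2 k hkT]
      · have hbj : b ≠ j := fun h => hj (h ▸ hb)
        rw [← mul_assoc, mul_tv_ne _ _ _ _ _ _ hbj, h1 b hb]
    · have hbj : b ≠ j := fun h => hb (h ▸ Finset.mem_insert_self j T)
      have hbT : b ∉ T := fun h => hb (Finset.mem_insert_of_mem h)
      rw [← mul_assoc, mul_tv_ne _ _ _ _ _ _ hbj, h2 b hbT]

/-- agreement with the identity on the rows and columns of `S` -/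
def Ag (S : Finset ι) (g : SpecialLinearGroup ι R) : Prop :=
  ∀ s ∈ S, ∀ j, g.1 s j = (1 : Matrix ι ι R) s j ∧ g.1 j s = (1 : Matrix ι ι R) j s

lemma Ag.inv {S : Finset ι} {g : SpecialLinearGroup ι R} (h : Ag S g) : Ag S g⁻¹ := by
  intro s hs j
  have h1 : (g⁻¹ * g).1 = 1 := by rw [inv_mul_cancel]; rfl
  have h2 : (g * g⁻¹).1 = 1 := by rw [mul_inv_cancel]; rfl
  constructor
  · have h3 : ∑ i, g.1 s i * g⁻¹.1 i j = (1 : Matrix ι ι R) s j := by
      have := congrFun (congrFun h2 s) j
      rw [← this]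
      rfl
    rw [← h3, Finset.sum_eq_single s]
    · rw [(h s hs s).1, Matrix.one_apply_eq, one_mul]
    · intro i _ hi
      rw [(h s hs i).1, Matrix.one_apply_ne (Ne.symm hi), zero_mul]
    · intro h'
      exact absurd (Finset.mem_univ s) h'
  · have h3 : ∑ i, g⁻¹.1 j i * g.1 i s = (1 : Matrix ι ι R) j s := by
      have := congrFun (congrFun h1 j) s
      rw [← this]
      rfl
    rw [← h3, Finset.sum_eq_single s]
    · rw [(h s hs s).2, Matrix.one_apply_eq, mul_one]
    · intro i _ hi
      rw [(h s hs i).2, Matrix.one_apply_ne hi, mul_zero]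
    · intro h'
      exact absurd (Finset.mem_univ s) h'

/-- one pivot -/
lemma pivot [Finite R] {S : Finset ι} {k l : ι} (hk : k ∉ S) (hl : l ∉ S) (hkl : k ≠ l)
    {g : SpecialLinearGroup ι R} (hg : Ag S g) :
    ∃ e ∈ El ι R, ∃ f ∈ El ι R, Ag (insert k S) (e * g * f) := by
  classical
  -- the first column is unimodular
  have h1 : (g⁻¹ * g).1 k k = 1 := by
    rw [inv_mul_cancel]
    exact Matrix.one_apply_eq k
  have h2 : ∑ i, g⁻¹.1 k i * g.1 i k = 1 := h1
  set T : Finset ι := (Finset.univ \ S).erase k with hT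
  have hkT : k ∉ T := Finset.notMem_erase k _
  have hTS : ∀ {i}, i ∈ T → i ∉ S := fun hi =>
    (Finset.mem_sdiff.mp (Finset.mem_of_mem_erase hi)).2
  have hmT : ∀ {i}, i ≠ k → i ∉ S → i ∈ T := fun h h' =>
    Finset.mem_erase.mpr ⟨h, Finset.mem_sdiff.mpr ⟨Finset.mem_univ _, h'⟩⟩
  have h3 : g.1 k k * g⁻¹.1 k k + (∑ i ∈ T, g⁻¹.1 k i * g.1 i k) * 1 = 1 := by
    refine Eq.trans ?_ h2
    rw [mul_one, mul_comm (g.1 k k), ← Finset.add_sum_erase Finset.univ _
      (Finset.mem_univ k)]
    congr 1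
    refine Finset.sum_subset (Finset.erase_subset_erase _ (Finset.sdiff_subset)) ?_
    intro i hi hi'
    have hik : i ≠ k := Finset.ne_of_mem_erase hi
    have hiS : i ∈ S := by
      by_contra h
      exact hi' (hmT hik h)
    rw [(hg i hiS k).1, Matrix.one_apply_ne hik, mul_zero]
  obtain ⟨t, ht⟩ := stable_one h3
  -- step 1: the pivot becomes a unit
  obtain ⟨e₁, he₁, h41, h42⟩ := add_to_row k (fun i => t * g⁻¹.1 k i) g T hkT
  have hu : IsUnit ((e₁ * g).1 k k) := by
    rw [h41 k]
    convert ht using 2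
    rw [Finset.mul_sum]
    refine Finset.sum_congr rfl fun i _ => by ring
  have hg₁ : Ag S (e₁ * g) := by
    intro s hs j
    have hsk : s ≠ k := fun h => hk (h ▸ hs)
    refine ⟨by rw [h42 s hsk, (hg s hs j).1], ?_⟩
    by_cases hj : j = k
    · subst hj
      rw [h41 s, (hg s hs j).2, Finset.sum_eq_zero, add_zero]
      intro i hi
      have his : i ≠ s := fun h => hTS hi (h ▸ hs)
      rw [(hg s hs i).2, Matrix.one_apply_ne his, mul_zero]
    · rw [h42 j hj, (hg s hs j).2]
  set g₁ := e₁ * g with hg₁d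
  -- step 2: the pivot becomes one
  obtain ⟨u, hu'⟩ := hu
  have hlk : l ≠ k := hkl.symm
  set g₂ := tv l k hlk (↑u⁻¹ * (1 - g₁.1 l k)) * g₁ with hg₂d
  have hlk2 : g₂.1 l k = 1 := by
    rw [hg₂d, tv_mul_same, ← hu']
    have : (↑u⁻¹ * (1 - g₁.1 l k)) * (u : R) = 1 - g₁.1 l k := by
      rw [mul_comm, ← mul_assoc, Units.mul_inv, one_mul]
    rw [this]
    ring
  set g₃ := tv k l hkl (1 - g₁.1 k k) * g₂ with hg₃d
  have hkk3 : g₃.1 k k = 1 := by
    rw [hg₃d, tv_mul_same, hlk2, hg₂d, tv_mul_ne _ _ _ _ _ hkl]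
    ring
  have hrow : ∀ (a b : ι) (hab : a ≠ b) (c : R) (x : SpecialLinearGroup ι R), a ∉ S → b ∉ S →
      Ag S x → Ag S (tv a b hab c * x) := by
    intro a b hab c x ha hb hx s hs j
    have hsa : s ≠ a := fun h => ha (h ▸ hs)
    refine ⟨by rw [tv_mul_ne _ _ _ _ _ hsa, (hx s hs j).1], ?_⟩
    by_cases hj : j = a
    · subst hj
      have hbs : b ≠ s := fun h => hb (h ▸ hs)
      rw [tv_mul_same, (hx s hs j).2, (hx s hs b).2, Matrix.one_apply_ne hbs, mul_zero, add_zero]
    · rw [tv_mul_ne _ _ _ _ _ hj, (hx s hs j).2]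
  have hg₃ : Ag S g₃ := hrow _ _ _ _ _ hk hl (hrow _ _ _ _ _ hl hk hg₁)
  -- step 3: clear the column
  obtain ⟨e₂, he₂, h51, h52⟩ := add_from_row k (fun i => - g₃.1 i k) g₃ T hkT
  have hsT : ∀ {s}, s ∈ S → s ∉ T := fun hs h => hTS h hs
  have hg₄ : Ag S (e₂ * g₃) := by
    intro s hs j
    refine ⟨by rw [h52 s (hsT hs), (hg₃ s hs j).1], ?_⟩
    by_cases hj : j ∈ T
    · have hks : k ≠ s := fun h => hk (h ▸ hs)
      rw [h51 j hj, (hg₃ s hs j).2, (hg₃ s hs k).2, Matrix.one_apply_ne hks, mul_zero, add_zero]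
    · rw [h52 j hj, (hg₃ s hs j).2]
  have hcol : ∀ j, (e₂ * g₃).1 j k = (1 : Matrix ι ι R) j k := by
    intro j
    by_cases hj : j ∈ T
    · have hjk : j ≠ k := fun h => hkT (h ▸ hj)
      rw [h51 j hj, hkk3, Matrix.one_apply_ne hjk]
      ring
    · rw [h52 j hj]
      by_cases hjk : j = k
      · rw [hjk, hkk3, Matrix.one_apply_eq]
      · have hjS : j ∈ S := by
          by_contra h
          exact hj (hmT hjk h)
        rw [(hg₃ j hjS k).1]
  set g₄ := e₂ * g₃ with hg₄d
  -- step 4: clear the row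
  obtain ⟨f, hf, h61, h62⟩ := add_from_col k (fun i => - g₄.1 k i) g₄ T hkT
  have hkk4 : g₄.1 k k = 1 := by rw [hcol k, Matrix.one_apply_eq]
  have hg₅ : Ag S (g₄ * f) := by
    intro s hs j
    refine ⟨?_, by rw [h62 s (hsT hs), (hg₄ s hs j).2]⟩
    by_cases hj : j ∈ T
    · have hsk : s ≠ k := fun h => hk (h ▸ hs)
      rw [h61 j hj, (hg₄ s hs j).1, (hg₄ s hs k).1, Matrix.one_apply_ne hsk, mul_zero, add_zero]
    · rw [h62 j hj, (hg₄ s hs j).1]
  have hrowk : ∀ j, (g₄ * f).1 k j = (1 : Matrix ι ι R) k j := by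
    intro j
    by_cases hj : j ∈ T
    · have hjk : k ≠ j := fun h => hkT (h ▸ hj)
      rw [h61 j hj, hkk4, Matrix.one_apply_ne hjk]
      ring
    · rw [h62 j hj]
      by_cases hjk : j = k
      · rw [hjk, hkk4, Matrix.one_apply_eq]
      · have hjS : j ∈ S := by
          by_contra h
          exact hj (hmT hjk h)
        rw [(hg₄ j hjS k).2]
  have hcolk : ∀ j, (g₄ * f).1 j k = (1 : Matrix ι ι R) j k := by
    intro j
    rw [h62 k hkT, hcol]
  refine ⟨e₂ * (tv k l hkl (1 - g₁.1 k k) * (tv l k hlk (↑u⁻¹ * (1 - g₁.1 l k)) * e₁)),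
    mul_mem he₂ (mul_mem (tv_mem _ _ _ _) (mul_mem (tv_mem _ _ _ _) he₁)), f, hf, ?_⟩
  have e : e₂ * (tv k l hkl (1 - g₁.1 k k) * (tv l k hlk (↑u⁻¹ * (1 - g₁.1 l k)) * e₁)) * g * f =
      g₄ * f := by
    rw [hg₄d, hg₃d, hg₂d, hg₁d]
    simp only [mul_assoc]
  rw [e]
  intro s hs j
  rcases Finset.mem_insert.mp hs with rfl | hs
  · exact ⟨hrowk j, hcolk j⟩
  · exact hg₅ s hs j

theorem mem_El_of_Ag [Finite R] (n : ℕ) : ∀ S : Finset ι, (Finset.univ \ S).card = n →
    ∀ g : SpecialLinearGroup ι R, Ag S g → g ∈ El ι R := by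
  classical
  induction n with
  | zero =>
    intro S hS g hg
    have hS' : ∀ i, i ∈ S := by
      intro i
      by_contra h
      have : i ∈ Finset.univ \ S := Finset.mem_sdiff.mpr ⟨Finset.mem_univ i, h⟩
      rw [Finset.card_eq_zero.mp hS] at this
      exact absurd this (Finset.notMem_empty i)
    have : g = 1 := by
      ext i j
      exact (hg i (hS' i) j).1
    rw [this]
    exact one_mem _
  | succ n ih =>
    intro S hS g hg
    obtain ⟨k, hk⟩ : (Finset.univ \ S).Nonempty := by
      rw [← Finset.card_pos, hS]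
      exact Nat.succ_pos n
    have hkS : k ∉ S := (Finset.mem_sdiff.mp hk).2
    have hcard : (Finset.univ \ insert k S).card = n := by
      have : Finset.univ \ insert k S = (Finset.univ \ S).erase k := by
        ext i
        simp only [Finset.mem_sdiff, Finset.mem_univ, true_and, Finset.mem_insert,
          Finset.mem_erase]
        tauto
      rw [this, Finset.card_erase_of_mem hk, hS]
      rfl
    by_cases hn : ∃ l, l ∉ S ∧ k ≠ l
    · obtain ⟨l, hl, hkl⟩ := hn
      obtain ⟨e, he, f, hf, h⟩ := pivot hkS hl hkl hg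
      have h1 := ih (insert k S) hcard _ h
      have h2 : g = e⁻¹ * (e * g * f) * f⁻¹ := by group
      rw [h2]
      exact mul_mem (mul_mem (inv_mem he) h1) (inv_mem hf)
    · push Not at hn
      -- only one row remains: the entry is the determinant
      have hd : g.1 = Matrix.diagonal (fun i => if i = k then g.1 k k else 1) := by
        ext i j
        rw [Matrix.diagonal_apply]
        by_cases hi : i = k
        · subst hi
          by_cases hj : i = j
          · subst hj
            simp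
          · rw [if_neg hj]
            have hjS : j ∈ S := by
              by_contra h
              exact hj (hn j h)
            rw [(hg j hjS i).2, Matrix.one_apply_ne hj]
        · have hiS : i ∈ S := by
            by_contra h
            exact hi (hn i h).symm
          rw [(hg i hiS j).1, Matrix.one_apply, if_neg hi]
      have hdet : g.1 k k = 1 := by
        have h1 : g.1.det = 1 := g.2
        rw [hd, Matrix.det_diagonal, Finset.prod_ite_eq' Finset.univ k] at h1
        simpa using h1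
      have : g = 1 := by
        apply Subtype.ext
        rw [hd, hdet]
        ext i j
        simp [Matrix.diagonal_apply, Matrix.one_apply]
      rw [this]
      exact one_mem _

/-- the special linear groups over finite commutative rings are generated by transvections -/
theorem closure_tv_eq_top [Finite R] :
    Subgroup.closure {g : SpecialLinearGroup ι R | ∃ i j, i ≠ j ∧ ∃ c : R,
      (g : Matrix ι ι R) = transvection i j c} = ⊤ := by
  rw [eq_top_iff]
  intro g _
  exact mem_El_of_Ag _ ∅ rfl g fun s hs => absurd hs (Finset.notMem_empty s)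

end group

end Vale.Agent.P183.R2.H612
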