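import Mathlib

set_option linter.all false

/-!
Invertible submodules of finite commutative rings.
-/

namespace Vale.Agent.P183.R2.H612

section

variable {R : Type*} [CommRing R] (P : Subring R)

instance finite_submodule [Finite R] : Finite (Submodule P R) :=
  Finite.of_injective (fun C : Submodule P R => (C : Set R)) SetLike.coe_injective

theorem card_submodule_le [Finite R] : Nat.card (Submodule P R) ≤ 2 ^ Nat.card R := by
  classical
  have := Fintype.ofFinite R
  have h := Nat.card_le_card_of_injective (fun C : Submodule P R => (C : Set R))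
    SetLike.coe_injective
  have h2 : Nat.card (Set R) = 2 ^ Nat.card R := by
    rw [Nat.card_eq_fintype_card, Nat.card_eq_fintype_card, Fintype.card_set]
  omega

/-- the number of invertible submodules is at most `2 ^ |R|` -/
theorem pow_eq_one_of_dvd [Finite R] {C C' : Submodule P R} (h : C * C' = 1) {n : ℕ}
    (hn : (2 ^ Nat.card R).factorial ∣ n) : C ^ n = 1 := by
  have hfu : Finite (Submodule P R)ˣ := inferInstance
  let u : (Submodule P R)ˣ := ⟨C, C', h, by rw [mul_comm]; exact h⟩
  have h1 : Nat.card (Submodule P R)ˣ ≤ 2 ^ Nat.card R :=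
    le_trans (Nat.card_le_card_of_injective (fun u : (Submodule P R)ˣ => (u : Submodule P R))
      (fun a b hab => Units.ext hab)) (card_submodule_le P)
  have h2 : orderOf u ∣ Nat.card (Submodule P R)ˣ := orderOf_dvd_natCard u
  have h3 : orderOf u ≤ 2 ^ Nat.card R :=
    le_trans (Nat.le_of_dvd Nat.card_pos h2) h1
  have h4 : orderOf u ∣ n :=
    (Nat.dvd_factorial (orderOf_pos u) h3).trans hn
  have h5 : u ^ n = 1 := orderOf_dvd_iff_pow_eq_one.mp h4
  have := congrArg Units.val h5
  simpa using this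

theorem eq_one_of_pow [Finite R] {C C' : Submodule P R} (h : C * C' = 1) {a : ℕ} (ha : 1 ≤ a)
    (hd : (2 ^ Nat.card R).factorial ∣ a - 1) (hC : C ^ a = 1) : C = 1 := by
  have h1 := pow_eq_one_of_dvd P h hd
  obtain ⟨m, rfl⟩ : ∃ m, a = m + 1 := ⟨a - 1, by omega⟩
  rw [Nat.add_sub_cancel] at h1
  rw [pow_succ, h1, one_mul] at hC
  exact hC

/-- the spans of the entries of an invertible matrix and of its inverse -/
theorem eq_one_of_cofactors [Finite R] {C C' : Submodule P R} (h : C * C' = 1) {a : ℕ}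
    (ha : 1 ≤ a) (hd : (2 ^ Nat.card R).factorial ∣ a - 1) (h1 : C' ≤ C ^ (a - 1))
    (h2 : C ≤ C' ^ (a - 1)) : C = 1 := by
  obtain ⟨m, rfl⟩ : ∃ m, a = m + 1 := ⟨a - 1, by omega⟩
  rw [Nat.add_sub_cancel] at h1 h2
  refine eq_one_of_pow P h ha hd ?_
  have h3 : (1 : Submodule P R) ≤ C ^ (m + 1) := by
    rw [← h, pow_succ']
    gcongr
  have h4 : (1 : Submodule P R) ≤ C' ^ (m + 1) := by
    rw [← h, mul_comm, pow_succ']
    gcongr
  refine le_antisymm ?_ h3
  calc C ^ (m + 1) = C ^ (m + 1) * 1 := (mul_one _).symm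
    _ ≤ C ^ (m + 1) * C' ^ (m + 1) := by gcongr
    _ = 1 := by rw [← mul_pow, h, one_pow]

end

end Vale.Agent.P183.R2.H612
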